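import Vale.Agent.P310.H44.Horn

/-!
# P310, W2: the Duplicator half of Theorem A
-/

namespace Vale.Agent.P310

open Finset

variable {Q C R M' : Type} {h k q : ℕ}

/-- items of the structure: variables and (valid) constraints -/
abbrev Item (M' : Type) (H : RowHorn Q C R h) (P : Rows k h) :=
  Var Q C R M' k ⊕ {e : Con Q R M' k // e.Valid H P}

section basics
variable (H : RowHorn Q C R h)

theorem der_c0 {x : Fin h → Q} (hx : H.Der H.c0 x) : x = H.x0 := by
  generalize hc : H.c0 = c at hx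
  cases hx with
  | base => rfl
  | step ρ x _ _ => exact absurd hc.symm (H.c0_concl ρ)

theorem der_cg (hg : ¬ H.Der H.cg H.xg) {x : Fin h → Q} : ¬ H.Der H.cg x := by
  intro hx
  generalize hc : H.cg = c at hx
  cases hx with
  | base => exact H.c0_ne_cg hc.symm
  | step ρ x h1 h2 =>
    have hc' : H.concl ρ = H.cg := hc.symm
    have e : (fun j => H.psi ρ j (x j)) = H.xg := by
      funext j; exact H.cg_concl ρ j (x j) hc'
    have := RowHorn.Der.step ρ x h1 h2
    rw [e, hc'] at this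
    exact hg this

end basics

section
variable (H : RowHorn Q C R h) (P : Rows k h) (D : Design R M' q) (m0 : Bit R M')

/-- the variables of an item -/
noncomputable def cov : Item M' H P → Finset (Var Q C R M' k)
  | .inl v => {v}
  | .inr e => e.1.vars H P D m0

/-- the variable `v` belongs to an item of `Y` -/
def InV (Y : Finset (Item M' H P)) (v : Var Q C R M' k) : Prop := ∃ y ∈ Y, v ∈ cov H P D m0 y

/-- the known sums: derivable facts have sum `0` for all bits, the goal has sum `1` -/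
def KP (ξ : Kind C R M') (u : Fin k → Q) (val : ZMod 2) : Prop :=
  (∃ x : Fin h → Q, u = x ∘ P.π ∧ H.Der ξ.1 x ∧ val = 0) ∨
    (ξ = (H.cg, m0) ∧ u = H.xg ∘ P.π ∧ val = 1)

/-- the invariant of Duplicator -/
def Good (Y : Finset (Item M' H P)) (a : Var Q C R M' k → ZMod 2) : Prop :=
  (∀ e : {e : Con Q R M' k // e.Valid H P}, (Sum.inr e : Item M' H P) ∈ Y →
    ∑ v ∈ e.1.vars H P D m0, a v = e.1.par) ∧
  (∀ ξ u val, KP H P m0 ξ u val → (∀ r, InV H P D m0 Y (ξ, r, u r)) →
    ∑ r, a (ξ, r, u r) = val)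

/-- two tuples constant on the fibres of `π` that agree off one row are equal -/
theorem eq_of_agree_off {u u' : Fin k → Q} (hu : ∀ r r', P.π r = P.π r' → u r = u r')
    (hu' : ∀ r r', P.π r = P.π r' → u' r = u' r') (r2 : Fin k) (hr : ∀ r, r ≠ r2 → u r = u' r) :
    u = u' := by
  funext r
  by_cases h1 : r = r2
  · obtain ⟨r', h2, h3⟩ := P.two r
    rw [hu r r' h3.symm, hu' r r' h3.symm]
    exact hr r' (by rw [← h1]; exact h2)
  · exact hr r h1

theorem KP.const {ξ : Kind C R M'} {u : Fin k → Q} {val : ZMod 2} (hk : KP H P m0 ξ u val)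
    (r r' : Fin k) (hr : P.π r = P.π r') : u r = u r' := by
  rcases hk with ⟨x, rfl, _, _⟩ | ⟨_, rfl, _⟩ <;> simp [hr]

variable (hg : ¬ H.Der H.cg H.xg)

include hg in
theorem KP.val_unique {ξ : Kind C R M'} {u : Fin k → Q} {v1 v2 : ZMod 2}
    (h1 : KP H P m0 ξ u v1) (h2 : KP H P m0 ξ u v2) : v1 = v2 := by
  rcases h1 with ⟨x, rfl, h3, h4⟩ | ⟨h3, rfl, h4⟩ <;>
    rcases h2 with ⟨x', h5, h6, h7⟩ | ⟨h5, h6, h7⟩
  · rw [h4, h7]
  · rw [h5] at h3; exact absurd h3 (der_cg H hg)
  · rw [h3] at h6; exact absurd h6 (der_cg H hg)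
  · rw [h4, h7]

/-- kinds of type `c0` have one known element -/
theorem KP.c0 {m : Bit R M'} {u : Fin k → Q} {val : ZMod 2} (hk : KP H P m0 (H.c0, m) u val) :
    u = H.x0 ∘ P.π ∧ val = 0 := by
  rcases hk with ⟨x, rfl, h3, h4⟩ | ⟨h3, rfl, h4⟩
  · rw [der_c0 H h3]; exact ⟨rfl, h4⟩
  · exact absurd (congrArg Prod.fst h3) H.c0_ne_cg

include hg in
/-- kinds of type `cg` have at most one known element -/
theorem KP.cg {m : Bit R M'} {u : Fin k → Q} {val : ZMod 2} (hk : KP H P m0 (H.cg, m) u val) :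
    m = m0 ∧ u = H.xg ∘ P.π ∧ val = 1 := by
  rcases hk with ⟨x, rfl, h3, h4⟩ | ⟨h3, rfl, h4⟩
  · exact absurd h3 (der_cg H hg)
  · exact ⟨congrArg Prod.snd h3, rfl, h4⟩

/-! ### the variables of the constraints -/

theorem mem_vars_row {ρ : R} {m : Bit R M'} {r : Fin k} {a : Q} {v : Var Q C R M' k} :
    v ∈ (Con.row ρ m r a).vars H P D m0 ↔
      (∃ c ∈ H.prem ρ, ∃ l ∈ D.S m, v = ((c, (ρ, l)), r, H.phi ρ c (P.π r) a)) ∨
        v = ((H.concl ρ, m), r, H.psi ρ (P.π r) a) := by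
  unfold Con.vars
  simp only [mem_union, mem_image, mem_product, mem_singleton, Prod.exists]
  constructor
  · rintro (⟨c, l, ⟨hc, hl⟩, rfl⟩ | rfl)
    · exact Or.inl ⟨c, hc, l, hl, rfl⟩
    · exact Or.inr rfl
  · rintro (⟨c, hc, l, hl, rfl⟩ | rfl)
    · exact Or.inl ⟨c, l, ⟨hc, hl⟩, rfl⟩
    · exact Or.inr rfl

theorem mem_vars_cross {m : Bit R M'} {v : Var Q C R M' k} :
    v ∈ (Con.cross m : Con Q R M' k).vars H P D m0 ↔ ∃ r, v = ((H.c0, m), r, H.x0 (P.π r)) := by
  unfold Con.vars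
  simp only [mem_image, mem_univ, true_and]
  exact ⟨fun ⟨r, h⟩ => ⟨r, h.symm⟩, fun ⟨r, h⟩ => ⟨r, h.symm⟩⟩

theorem mem_vars_goal {v : Var Q C R M' k} :
    v ∈ (Con.goal : Con Q R M' k).vars H P D m0 ↔ ∃ r, v = ((H.cg, m0), r, H.xg (P.π r)) := by
  unfold Con.vars
  simp only [mem_image, mem_univ, true_and]
  exact ⟨fun ⟨r, h⟩ => ⟨r, h.symm⟩, fun ⟨r, h⟩ => ⟨r, h.symm⟩⟩

/-- a row constraint lives in its row -/
theorem row_of_mem {ρ : R} {m : Bit R M'} {r : Fin k} {a : Q} {v : Var Q C R M' k}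
    (hv : v ∈ (Con.row ρ m r a).vars H P D m0) : v.2.1 = r := by
  rcases (mem_vars_row H P D m0).1 hv with ⟨c, hc, l, hl, rfl⟩ | rfl <;> rfl

/-- a row constraint has at most one variable of each kind -/
theorem kind_inj {ρ : R} {m : Bit R M'} {r : Fin k} {a : Q} {v w : Var Q C R M' k}
    (hv : v ∈ (Con.row ρ m r a).vars H P D m0) (hw : w ∈ (Con.row ρ m r a).vars H P D m0)
    (hk : v.1 = w.1) : v = w := by
  rcases (mem_vars_row H P D m0).1 hv with ⟨c, hc, l, hl, rfl⟩ | rfl <;>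
    rcases (mem_vars_row H P D m0).1 hw with ⟨c', hc', l', hl', rfl⟩ | rfl
  · simp only [Prod.mk.injEq] at hk ⊢
    obtain ⟨rfl, _, rfl⟩ := hk
    simp
  · exfalso
    apply H.concl_notin ρ
    have e : c = H.concl ρ := congrArg Prod.fst hk
    rw [← e]
    exact hc
  · exfalso
    apply H.concl_notin ρ
    have e : H.concl ρ = c' := congrArg Prod.fst hk
    rw [e]
    exact hc'
  · rfl

/-- an item that is not a cross or goal constraint of the kind has at most one variable of it -/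
theorem item_kind_inj {y : Item M' H P} {v w : Var Q C R M' k} (hv : v ∈ cov H P D m0 y)
    (hw : w ∈ cov H P D m0 y) (hk : v.1 = w.1) (h0 : v.1.1 ≠ H.c0) (h1 : v.1.1 ≠ H.cg) : v = w := by
  rcases y with y | ⟨e, he⟩
  · simp only [cov, mem_singleton] at hv hw
    rw [hv, hw]
  · cases e with
    | row ρ m r a => exact kind_inj H P D m0 hv hw hk
    | cross m =>
      obtain ⟨r, rfl⟩ := (mem_vars_cross H P D m0).1 hv
      exact absurd rfl h0
    | goal =>
      obtain ⟨r, rfl⟩ := (mem_vars_goal H P D m0).1 hv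
      exact absurd rfl h1

include hg in
/-- Claim U: a new variable completes at most one known element -/
theorem claimU [DecidableEq (Fin k)] {Y : Finset (Item M' H P)} (hY : Y.card ≤ k)
    {ξ : Kind C R M'} {r1 : Fin k} {u u' : Fin k → Q} {val val' : ZMod 2}
    (hu : KP H P m0 ξ u val) (hu' : KP H P m0 ξ u' val') (hr1 : u r1 = u' r1)
    (hc : ∀ r, r ≠ r1 → InV H P D m0 Y (ξ, r, u r))
    (hc' : ∀ r, r ≠ r1 → InV H P D m0 Y (ξ, r, u' r)) : u = u' := by
  classical
  obtain ⟨c, m⟩ := ξ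
  by_cases h0 : c = H.c0
  · subst h0
    rw [(KP.c0 H P m0 hu).1, (KP.c0 H P m0 hu').1]
  by_cases h1 : c = H.cg
  · subst h1
    rw [(KP.cg H P m0 hg hu).2.1, (KP.cg H P m0 hg hu').2.1]
  by_contra hne
  -- a row where they differ, and another one in the same fibre
  obtain ⟨r2, hr2⟩ : ∃ r, u r ≠ u' r := by
    by_contra hcon
    push Not at hcon
    exact hne (funext hcon)
  obtain ⟨r3, hr3, hπ⟩ := P.two r2
  have hr3' : u r3 ≠ u' r3 := by
    rw [hu.const H P m0 r3 r2 hπ, hu'.const H P m0 r3 r2 hπ]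
    exact hr2
  have h21 : r2 ≠ r1 := by rintro rfl; exact hr2 hr1
  have h31 : r3 ≠ r1 := by rintro rfl; exact hr3' hr1
  -- k + 1 distinct variables
  set f : Fin k → Var Q C R M' k := fun r => ((c, m), r, u r) with hf
  set f' : Fin k → Var Q C R M' k := fun r => ((c, m), r, u' r) with hf'
  set A : Finset (Var Q C R M' k) := (univ.erase r1).image f with hA
  set B : Finset (Var Q C R M' k) := {f' r2, f' r3} with hB
  have hinj : Function.Injective f := fun r r' hrr => by
    have := congrArg (fun z => z.2.1) hrr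
    simpa [hf] using this
  have hAc : A.card = k - 1 := by
    rw [hA, card_image_of_injective _ hinj, card_erase_of_mem (mem_univ _), card_univ,
      Fintype.card_fin]
  have hBc : B.card = 2 := by
    rw [hB, card_pair]
    intro hcon
    have := congrArg (fun z => z.2.1) hcon
    exact hr3 (by simpa [hf'] using this.symm)
  have hdisj : Disjoint A B := by
    rw [disjoint_left]
    intro v hvA hvB
    rw [hA, mem_image] at hvA
    obtain ⟨r, -, rfl⟩ := hvA
    rw [hB, mem_insert, mem_singleton] at hvB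
    rcases hvB with hvB | hvB
    · have e1 := congrArg (fun z => z.2.1) hvB
      have e2 := congrArg (fun z => z.2.2) hvB
      simp only [hf, hf'] at e1 e2
      subst e1
      exact hr2 e2
    · have e1 := congrArg (fun z => z.2.1) hvB
      have e2 := congrArg (fun z => z.2.2) hvB
      simp only [hf, hf'] at e1 e2
      subst e1
      exact hr3' e2
  have hk : 1 ≤ k := by
    have := r1.2
    omega
  have hcard : (A ∪ B).card = k + 1 := by
    rw [card_union_of_disjoint hdisj, hAc, hBc]; omega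
  have hsub : A ∪ B ⊆ Y.biUnion fun y => (A ∪ B) ∩ cov H P D m0 y := by
    intro v hv
    have hin : InV H P D m0 Y v := by
      rw [mem_union] at hv
      rcases hv with hv | hv
      · rw [hA, mem_image] at hv
        obtain ⟨r, hr, rfl⟩ := hv
        exact hc r (mem_erase.1 hr).1
      · rw [hB, mem_insert, mem_singleton] at hv
        rcases hv with rfl | rfl
        · exact hc' r2 h21
        · exact hc' r3 h31
    obtain ⟨y, hy, hvy⟩ := hin
    exact mem_biUnion.2 ⟨y, hy, mem_inter.2 ⟨hv, hvy⟩⟩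
  have hkind : ∀ v ∈ A ∪ B, v.1 = (c, m) := by
    intro v hv
    rw [mem_union] at hv
    rcases hv with hv | hv
    · rw [hA, mem_image] at hv
      obtain ⟨r, hr, rfl⟩ := hv
      rfl
    · rw [hB, mem_insert, mem_singleton] at hv
      rcases hv with rfl | rfl <;> rfl
  have hle : (Y.biUnion fun y => (A ∪ B) ∩ cov H P D m0 y).card ≤ Y.card * 1 := by
    refine card_biUnion_le_card_mul _ _ _ fun y _ => ?_
    rw [card_le_one]
    intro v hv w hw
    rw [mem_inter] at hv hw
    have e1 := hkind v hv.1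
    have e2 := hkind w hw.1
    exact item_kind_inj H P D m0 hv.2 hw.2 (by rw [e1, e2]) (by rw [e1]; exact h0)
      (by rw [e1]; exact h1)
  have := (card_le_card hsub).trans hle
  omega

/-! ### forced values -/

section forth
open Classical in
/-- `(u, val)` is a known element through `v`, all other variables of which are covered -/
def Forced (Y : Finset (Item M' H P)) (v : Var Q C R M' k) (u : Fin k → Q) (val : ZMod 2) : Prop :=
  KP H P m0 v.1 u val ∧ u v.2.1 = v.2.2 ∧ ∀ r, r ≠ v.2.1 → InV H P D m0 Y (v.1, r, u r)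

open Classical in
/-- the extension of `a`: forced values outside the covered variables -/
noncomputable def ext (Y : Finset (Item M' H P)) (a : Var Q C R M' k → ZMod 2) :
    Var Q C R M' k → ZMod 2 := fun v =>
  if InV H P D m0 Y v then a v else
    if hf : ∃ u val, Forced H P D m0 Y v u val then
      hf.choose_spec.choose + ∑ r ∈ univ.erase v.2.1, a (v.1, r, hf.choose r)
    else 0

theorem ext_of_inV {Y : Finset (Item M' H P)} {a : Var Q C R M' k → ZMod 2}
    {v : Var Q C R M' k} (hv : InV H P D m0 Y v) : ext H P D m0 Y a v = a v := by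
  simp [ext, hv]

include hg in
theorem ext_of_forced {Y : Finset (Item M' H P)} (hY : Y.card ≤ k)
    {a : Var Q C R M' k → ZMod 2} {v : Var Q C R M' k} (hv : ¬ InV H P D m0 Y v)
    {u : Fin k → Q} {val : ZMod 2} (hf : Forced H P D m0 Y v u val) :
    ext H P D m0 Y a v + ∑ r ∈ univ.erase v.2.1, a (v.1, r, u r) = val := by
  classical
  have hex : ∃ u val, Forced H P D m0 Y v u val := ⟨u, val, hf⟩
  have h1 := hex.choose_spec.choose_spec
  have h2 : hex.choose = u :=
    claimU H P D m0 hg hY h1.1 hf.1 (h1.2.1.trans hf.2.1.symm) h1.2.2 hf.2.2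
  have h3 : hex.choose_spec.choose = val := by
    have h4 := h1.1
    have h5 := hf.1
    rw [← h2] at h5
    exact KP.val_unique H P m0 hg h4 h5
  unfold ext
  rw [if_neg hv, dif_pos hex, h3, h2, add_assoc, CharTwo.add_self_eq_zero, add_zero]

/-- gluing: an item all of whose variables are in one row -/
theorem glue_row [DecidableEq (Item M' H P)] {Y : Finset (Item M' H P)}
    {a a' : Var Q C R M' k → ZMod 2} (hgood : Good H P D m0 Y a) (x : Item M' H P) (r1 : Fin k)
    (hrow : ∀ v ∈ cov H P D m0 x, v.2.1 = r1)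
    (h1 : ∀ v, InV H P D m0 Y v → a' v = a v)
    (h2 : ∀ e : {e : Con Q R M' k // e.Valid H P}, x = Sum.inr e →
      ∑ v ∈ e.1.vars H P D m0, a' v = e.1.par)
    (h3 : ∀ v ∈ cov H P D m0 x, ¬ InV H P D m0 Y v → ∀ u val, Forced H P D m0 Y v u val →
      a' v + ∑ r ∈ univ.erase v.2.1, a (v.1, r, u r) = val) :
    Good H P D m0 (insert x Y) a' := by
  refine ⟨fun e he => ?_, fun ξ u val hk hin => ?_⟩
  · rw [mem_insert] at he
    rcases he with he | he
    · exact h2 e he.symm
    · rw [← hgood.1 e he]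
      exact sum_congr rfl fun v hv => h1 v ⟨_, he, hv⟩
  · by_cases hall : ∀ r, InV H P D m0 Y (ξ, r, u r)
    · rw [← hgood.2 ξ u val hk hall]
      exact sum_congr rfl fun r _ => h1 _ (hall r)
    · push Not at hall
      obtain ⟨r, hr⟩ := hall
      have hcov : ∀ r, ¬ InV H P D m0 Y (ξ, r, u r) → (ξ, r, u r) ∈ cov H P D m0 x := by
        intro r hr
        obtain ⟨y, hy, hvy⟩ := hin r
        rw [mem_insert] at hy
        rcases hy with rfl | hy
        · exact hvy
        · exact absurd ⟨y, hy, hvy⟩ hr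
      have hr1 : r = r1 := hrow _ (hcov r hr)
      subst hr1
      have hf : Forced H P D m0 Y (ξ, r, u r) u val := by
        refine ⟨hk, rfl, fun r' hr' => ?_⟩
        by_contra hcon
        exact hr' (hrow _ (hcov r' hcon))
      have := h3 _ (hcov r hr) hr u val hf
      rw [← this, ← add_sum_erase univ _ (mem_univ r)]
      congr 1
      exact sum_congr rfl fun r' hr' => h1 _ (hf.2.2 r' (mem_erase.1 hr').1)

/-- gluing: cross and goal constraints -/
theorem glue_line [DecidableEq (Item M' H P)] {Y : Finset (Item M' H P)}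
    {a : Var Q C R M' k → ZMod 2} (hgood : Good H P D m0 Y a)
    (e : {e : Con Q R M' k // e.Valid H P}) (ξ0 : Kind C R M') (u0 : Fin k → Q)
    (hvars : ∀ v, v ∈ e.1.vars H P D m0 ↔ ∃ r, v = (ξ0, r, u0 r))
    (hk0 : KP H P m0 ξ0 u0 e.1.par)
    (huniq : ∀ u val, KP H P m0 ξ0 u val → u = u0 ∧ val = e.1.par) :
    ∃ a', (∀ v, InV H P D m0 Y v → a' v = a v) ∧ Good H P D m0 (insert (Sum.inr e) Y) a' := by
  classical
  -- the sum over the constraint
  have hsum : ∀ f : Var Q C R M' k → ZMod 2,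
      ∑ v ∈ e.1.vars H P D m0, f v = ∑ r, f (ξ0, r, u0 r) := by
    intro f
    have e1 : e.1.vars H P D m0 = univ.image fun r => (ξ0, r, u0 r) := by
      ext v
      rw [hvars, mem_image]
      exact ⟨fun ⟨r, h⟩ => ⟨r, mem_univ _, h.symm⟩, fun ⟨r, _, h⟩ => ⟨r, h.symm⟩⟩
    rw [e1, sum_image]
    intro r _ r' _ hrr
    have := congrArg (fun z => z.2.1) hrr
    simpa using this
  have key : ∀ a' : Var Q C R M' k → ZMod 2, (∀ v, InV H P D m0 Y v → a' v = a v) →
      ∑ r, a' (ξ0, r, u0 r) = e.1.par → Good H P D m0 (insert (Sum.inr e) Y) a' := by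
    intro a' h1 h2
    refine ⟨fun e' he => ?_, fun ξ u val hk hin => ?_⟩
    · rw [mem_insert] at he
      rcases he with he | he
      · rw [Sum.inr.injEq] at he
        subst he
        rw [hsum, h2]
      · rw [← hgood.1 e' he]
        exact sum_congr rfl fun v hv => h1 v ⟨_, he, hv⟩
    · by_cases hall : ∀ r, InV H P D m0 Y (ξ, r, u r)
      · rw [← hgood.2 ξ u val hk hall]
        exact sum_congr rfl fun r _ => h1 _ (hall r)
      · push Not at hall
        obtain ⟨r, hr⟩ := hall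
        have hmem : (ξ, r, u r) ∈ e.1.vars H P D m0 := by
          obtain ⟨y, hy, hvy⟩ := hin r
          rw [mem_insert] at hy
          rcases hy with rfl | hy
          · exact hvy
          · exact absurd ⟨y, hy, hvy⟩ hr
        rw [hvars] at hmem
        obtain ⟨r', hr'⟩ := hmem
        have hξ : ξ = ξ0 := congrArg (fun z => z.1) hr'
        subst hξ
        obtain ⟨rfl, rfl⟩ := huniq u val hk
        exact h2
  by_cases hall : ∀ r, InV H P D m0 Y (ξ0, r, u0 r)
  · exact ⟨a, fun _ _ => rfl, key a (fun _ _ => rfl) (hgood.2 _ _ _ hk0 hall)⟩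
  · push Not at hall
    obtain ⟨r, hr⟩ := hall
    set a' : Var Q C R M' k → ZMod 2 :=
      Function.update a (ξ0, r, u0 r) (e.1.par + ∑ r' ∈ univ.erase r, a (ξ0, r', u0 r')) with ha'
    have h1 : ∀ v, InV H P D m0 Y v → a' v = a v := by
      intro v hv
      rw [ha', Function.update_of_ne]
      rintro rfl
      exact hr hv
    refine ⟨a', h1, key a' h1 ?_⟩
    rw [← add_sum_erase univ _ (mem_univ r)]
    have e1 : a' (ξ0, r, u0 r) = e.1.par + ∑ r' ∈ univ.erase r, a (ξ0, r', u0 r') := by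
      rw [ha', Function.update_self]
    have e2 : ∑ r' ∈ univ.erase r, a' (ξ0, r', u0 r') = ∑ r' ∈ univ.erase r, a (ξ0, r', u0 r') := by
      refine sum_congr rfl fun r' hr' => ?_
      rw [ha', Function.update_of_ne]
      intro hcon
      have := congrArg (fun z => z.2.1) hcon
      exact (mem_erase.1 hr').1 (by simpa using this)
    rw [e1, e2, add_assoc, CharTwo.add_self_eq_zero, add_zero]

/-! ### counting -/

section count

/-- an item covering two variables of premise type `c` with different bits of the line `S m` is a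
row constraint of `(ρ, m)` -/
theorem two_cover {ρ : R} {m : Bit R M'} {c : C} {l1 l2 : M'} (hne : l1 ≠ l2)
    (h1 : l1 ∈ D.S m) (h2 : l2 ∈ D.S m) {r r' : Fin k} {s s' : Q} {y : Item M' H P}
    (hy1 : ((c, (ρ, l1)), r, s) ∈ cov H P D m0 y) (hy2 : ((c, (ρ, l2)), r', s') ∈ cov H P D m0 y) :
    ∃ b, ∃ hb : (Con.row ρ m r b : Con Q R M' k).Valid H P, y = Sum.inr ⟨_, hb⟩ := by
  rcases y with y | ⟨e, he⟩
  · simp only [cov, mem_singleton] at hy1 hy2
    rw [← hy2] at hy1
    simp only [Prod.mk.injEq] at hy1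
    exact absurd hy1.1.2.2 hne
  · cases e with
    | row ρ' m' r'' b =>
      have e1 := row_of_mem H P D m0 (show _ ∈ (Con.row ρ' m' r'' b).vars H P D m0 from hy1)
      rcases (mem_vars_row H P D m0).1
        (show _ ∈ (Con.row ρ' m' r'' b).vars H P D m0 from hy1) with ⟨c1, hc1, l1', hl1, h3⟩ | h3 <;>
      rcases (mem_vars_row H P D m0).1
        (show _ ∈ (Con.row ρ' m' r'' b).vars H P D m0 from hy2) with ⟨c2, hc2, l2', hl2, h4⟩ | h4 <;>
      simp only [Prod.mk.injEq] at h3 h4 e1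
      · obtain ⟨⟨rfl, rfl, rfl⟩, rfl, rfl⟩ := h3
        obtain ⟨⟨_, _, rfl⟩, _, _⟩ := h4
        have hm : m = m' := by
          by_contra hmm
          exact hne (D.inter m m' hmm l1 l2 h1 hl1 h2 hl2)
        subst hm
        exact ⟨b, he, rfl⟩
      · obtain ⟨⟨rfl, rfl, rfl⟩, rfl, rfl⟩ := h3
        obtain ⟨⟨h5, _⟩, _⟩ := h4
        exact absurd (h5 ▸ hc1) (H.concl_notin ρ)
      · obtain ⟨⟨h5, _⟩, _⟩ := h3
        obtain ⟨⟨h6, _⟩, _⟩ := h4
        subst h6
        exact absurd (h5 ▸ hc2) (H.concl_notin ρ')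
      · obtain ⟨⟨h5, h7⟩, _⟩ := h3
        obtain ⟨⟨h6, h8⟩, _⟩ := h4
        rw [← h8] at h7
        simp only [Prod.mk.injEq] at h7
        exact absurd h7.2 hne
    | cross m' =>
      obtain ⟨r1, h3⟩ := (mem_vars_cross H P D m0).1 hy1
      obtain ⟨r2, h4⟩ := (mem_vars_cross H P D m0).1 hy2
      simp only [Prod.mk.injEq] at h3 h4
      have := h3.1.2.trans h4.1.2.symm
      simp only [Prod.mk.injEq] at this
      exact absurd this.2 hne
    | goal =>
      obtain ⟨r1, h3⟩ := (mem_vars_goal H P D m0).1 hy1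
      obtain ⟨r2, h4⟩ := (mem_vars_goal H P D m0).1 hy2
      simp only [Prod.mk.injEq] at h3 h4
      have := h3.1.2.trans h4.1.2.symm
      simp only [Prod.mk.injEq] at this
      exact absurd this.2 hne

/-- symbol of a premise variable of a row constraint -/
theorem sym_of_mem {ρ : R} {m : Bit R M'} {c : C} (hc : c ∈ H.prem ρ) {l : Bit R M'}
    {r r' : Fin k} {s b : Q} (hv : ((c, l), r, s) ∈ (Con.row ρ m r' b).vars H P D m0) :
    r = r' ∧ s = H.phi ρ c (P.π r) b := by
  have e1 := row_of_mem H P D m0 hv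
  simp only at e1
  subst e1
  rcases (mem_vars_row H P D m0).1 hv with ⟨c1, hc1, l1', hl1, h3⟩ | h3 <;>
    simp only [Prod.mk.injEq] at h3
  · obtain ⟨⟨rfl, _⟩, _, rfl⟩ := h3
    exact ⟨rfl, rfl⟩
  · exact absurd (h3.1.1 ▸ hc) (H.concl_notin ρ)

open Classical in
/-- pigeonhole: if more than `|Y|` bits of the line are covered in a row then `Y` contains a row
constraint -/
theorem exists_row {Y : Finset (Item M' H P)} {ρ : R} {m : Bit R M'} {c : C} (hc : c ∈ H.prem ρ)
    (r : Fin k) (L : Finset M') (hL : L ⊆ D.S m) (hcard : Y.card < L.card) (s : M' → Q)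
    (hin : ∀ l ∈ L, InV H P D m0 Y ((c, (ρ, l)), r, s l)) :
    ∃ l ∈ L, ∃ b, ∃ hb : (Con.row ρ m r b : Con Q R M' k).Valid H P,
      (Sum.inr ⟨_, hb⟩ : Item M' H P) ∈ Y ∧ s l = H.phi ρ c (P.π r) b := by
  have hex : ∀ l, ∃ y, l ∈ L → y ∈ Y ∧ ((c, (ρ, l)), r, s l) ∈ cov H P D m0 y := by
    intro l
    by_cases hl : l ∈ L
    · obtain ⟨y, hy, hv⟩ := hin l hl
      exact ⟨y, fun _ => ⟨hy, hv⟩⟩
    · have hne : L.Nonempty := card_pos.1 (by omega)
      obtain ⟨l', hl'⟩ := hne
      obtain ⟨y, hy, hv⟩ := hin l' hl'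
      exact ⟨y, fun h => absurd h hl⟩
  choose f hf using hex
  obtain ⟨l1, hl1, l2, hl2, hne, heq⟩ :=
    exists_ne_map_eq_of_card_lt_of_maps_to hcard (fun l hl => (hf l hl).1)
  have h1 := (hf l1 hl1).2
  have h2 := (hf l2 hl2).2
  rw [← heq] at h2
  obtain ⟨b, hb, hy⟩ := two_cover H P D m0 hne (hL hl1) (hL hl2) h1 h2
  refine ⟨l1, hl1, b, hb, hy ▸ (hf l1 hl1).1, ?_⟩
  rw [hy] at h1
  exact (sym_of_mem H P D m0 hc (show _ ∈ (Con.row ρ m r b).vars H P D m0 from h1)).2

/-- `Y` has at most one element besides `k - 1` row constraints in different rows -/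
theorem extra_le {Y : Finset (Item M' H P)} (hY : Y.card ≤ k) {ρ : R} {m : Bit R M'}
    {r1 : Fin k} {b : Fin k → Q}
    (hb : ∀ r, r ≠ r1 → ∃ hb : (Con.row ρ m r (b r) : Con Q R M' k).Valid H P,
      (Sum.inr ⟨_, hb⟩ : Item M' H P) ∈ Y) {y z : Item M' H P} (hy : y ∈ Y) (hz : z ∈ Y)
    (hy' : ∀ r, r ≠ r1 → ∀ h, y ≠ Sum.inr ⟨Con.row ρ m r (b r), h⟩)
    (hz' : ∀ r, r ≠ r1 → ∀ h, z ≠ Sum.inr ⟨Con.row ρ m r (b r), h⟩) : y = z := by
  classical
  by_contra hne
  have hex : ∀ r, ∃ w : Item M' H P, w ∈ Y ∧ (r ≠ r1 →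
      ∃ hb : (Con.row ρ m r (b r) : Con Q R M' k).Valid H P, w = Sum.inr ⟨_, hb⟩) := by
    intro r
    by_cases hr : r = r1
    · exact ⟨y, hy, fun h => absurd hr h⟩
    · obtain ⟨hb1, hb2⟩ := hb r hr
      exact ⟨_, hb2, fun _ => ⟨hb1, rfl⟩⟩
  choose f hf1 hf2 using hex
  have hinj : Set.InjOn f ↑(univ.erase r1) := by
    intro r hr r' hr' hrr
    have hr0 : r ≠ r1 := (mem_erase.1 (mem_coe.1 hr)).1
    have hr0' : r' ≠ r1 := (mem_erase.1 (mem_coe.1 hr')).1
    obtain ⟨h3, h4⟩ := hf2 r hr0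
    obtain ⟨h5, h6⟩ := hf2 r' hr0'
    rw [h4, h6] at hrr
    simp only [Sum.inr.injEq, Subtype.mk.injEq, Con.row.injEq] at hrr
    exact hrr.2.2.1
  have hcard : ((univ.erase r1).image f).card = k - 1 := by
    rw [card_image_of_injOn hinj, card_erase_of_mem (mem_univ _), card_univ, Fintype.card_fin]
  have hny : ∀ w : Item M' H P, (∀ r, r ≠ r1 → ∀ h, w ≠ Sum.inr ⟨Con.row ρ m r (b r), h⟩) →
      w ∉ (univ.erase r1).image f := by
    intro w hw hmem
    rw [mem_image] at hmem
    obtain ⟨r, hr, rfl⟩ := hmem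
    obtain ⟨h3, h4⟩ := hf2 r (mem_erase.1 hr).1
    exact hw r (mem_erase.1 hr).1 h3 h4
  have h5 : (insert y (insert z ((univ.erase r1).image f))).card = k - 1 + 2 := by
    rw [card_insert_of_notMem, card_insert_of_notMem (hny z hz'), hcard]
    rw [mem_insert, not_or]
    exact ⟨hne, hny y hy'⟩
  have h6 : insert y (insert z ((univ.erase r1).image f)) ⊆ Y := by
    intro w hw
    rw [mem_insert, mem_insert] at hw
    rcases hw with rfl | rfl | hw
    · exact hy
    · exact hz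
    · rw [mem_image] at hw
      obtain ⟨r, _, rfl⟩ := hw
      exact hf1 r
  have h7 := card_le_card h6
  have := r1.2
  omega

end count

/-! ### a row constraint all of whose new variables are forced -/

section forced
variable {Y : Finset (Item M' H P)} {ρ : R} {m : Bit R M'} {r1 : Fin k} {a0 : Q}

/-- the row constraints of `(ρ, m)` at the tuple `b` are in `Y`, in all rows but `r1` -/
def Line (Y : Finset (Item M' H P)) (ρ : R) (m : Bit R M') (r1 : Fin k) (b : Fin k → Q) : Prop :=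
  ∀ r, r ≠ r1 → ∃ hb : (Con.row ρ m r (b r) : Con Q R M' k).Valid H P,
    (Sum.inr ⟨_, hb⟩ : Item M' H P) ∈ Y

theorem line_unique (hY : Y.card ≤ k) {b b' : Fin k → Q} (hb : Line H P Y ρ m r1 b)
    (hb' : Line H P Y ρ m r1 b') (h1 : b r1 = b' r1) (hc : ∀ r r', P.π r = P.π r' → b r = b r')
    (hc' : ∀ r r', P.π r = P.π r' → b' r = b' r') : b = b' := by
  by_contra hne
  have hex : ∃ r2, b r2 ≠ b' r2 := by
    by_contra hcon
    push Not at hcon
    exact hne (funext hcon)
  obtain ⟨r2, hr2⟩ := hex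
  apply hne
  refine eq_of_agree_off P hc hc' r2 fun r hr => ?_
  by_contra hrne
  have hr0 : r ≠ r1 := by rintro rfl; exact hrne h1
  have hr20 : r2 ≠ r1 := by rintro rfl; exact hr2 h1
  obtain ⟨h3, h4⟩ := hb' r hr0
  obtain ⟨h5, h6⟩ := hb' r2 hr20
  have := extra_le H P hY hb h4 h6
    (fun r' _ h' hcon => by
      simp only [Sum.inr.injEq, Subtype.mk.injEq, Con.row.injEq] at hcon
      obtain ⟨_, _, rfl, h8⟩ := hcon
      exact hrne h8.symm)
    (fun r' _ h' hcon => by
      simp only [Sum.inr.injEq, Subtype.mk.injEq, Con.row.injEq] at hcon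
      obtain ⟨_, _, rfl, h8⟩ := hcon
      exact hr2 h8.symm)
  simp only [Sum.inr.injEq, Subtype.mk.injEq, Con.row.injEq] at this
  exact hr this.2.2.1

open Classical in
theorem exists_line (hq : k + 2 ≤ q) (hY : Y.card ≤ k)
    (he : (Con.row ρ m r1 a0 : Con Q R M' k).Valid H P)
    (hnot : (Sum.inr ⟨_, he⟩ : Item M' H P) ∉ Y)
    (hall : ∀ v ∈ (Con.row ρ m r1 a0 : Con Q R M' k).vars H P D m0, ¬ InV H P D m0 Y v →
      ∃ u val, Forced H P D m0 Y v u val)
    {c : C} (hc : c ∈ H.prem ρ) :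
    ∃ b : Fin k → Q, b r1 = a0 ∧ Line H P Y ρ m r1 b ∧ (∀ r r', P.π r = P.π r' → b r = b r') ∧
      (∀ r, b r ∈ H.dom ρ (P.π r)) ∧
      ∃ x, H.Der c x ∧ x ∘ P.π = fun r => H.phi ρ c (P.π r) (b r) := by
  have hk : 1 ≤ k := by
    have := r1.2
    omega
  set L : Finset M' := (D.S m).filter fun l =>
    ¬ InV H P D m0 Y ((c, (ρ, l)), r1, H.phi ρ c (P.π r1) a0) with hL
  -- the items of `Y` that cover a variable of the constraint of type `c`, and the other ones
  set Y1 : Finset (Item M' H P) := Y.filter fun y =>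
    ∃ l ∈ D.S m, ((c, (ρ, l)), r1, H.phi ρ c (P.π r1) a0) ∈ cov H P D m0 y with hY1
  set Y2 : Finset (Item M' H P) := Y.filter fun y =>
    ¬ ∃ l ∈ D.S m, ((c, (ρ, l)), r1, H.phi ρ c (P.π r1) a0) ∈ cov H P D m0 y with hY2
  have hY12 : Y1.card + Y2.card = Y.card := by
    rw [hY1, hY2]
    exact card_filter_add_card_filter_not _
  have hB : ((D.S m).filter fun l =>
      InV H P D m0 Y ((c, (ρ, l)), r1, H.phi ρ c (P.π r1) a0)).card ≤ Y1.card := by
    by_contra hcon
    rw [not_le] at hcon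
    obtain ⟨l, hl, b, hb, hbY, hs⟩ := exists_row H P D m0 hc r1 _ (filter_subset _ _) hcon
      (fun _ => H.phi ρ c (P.π r1) a0) (fun l hl => by
        obtain ⟨y, hy, hvy⟩ := (mem_filter.1 hl).2
        exact ⟨y, mem_filter.2 ⟨hy, l, (mem_filter.1 hl).1, hvy⟩, hvy⟩)
    have : a0 = b := H.phi_inj ρ c (P.π r1) hc he hb hs
    subst this
    exact hnot (mem_filter.1 hbY).1
  have hLc : Y2.card + 2 ≤ L.card := by
    have h1 := card_filter_add_card_filter_not (s := D.S m) fun l =>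
      InV H P D m0 Y ((c, (ρ, l)), r1, H.phi ρ c (P.π r1) a0)
    rw [D.card_S] at h1
    have h2 : q ≤ Y1.card + L.card := by
      rw [← h1]
      refine Nat.add_le_add ?_ (le_of_eq ?_)
      · exact le_trans (le_of_eq (by congr)) hB
      · rw [hL]
    omega
  have hLsub : L ⊆ D.S m := filter_subset _ _
  -- the forced elements
  have hf : ∀ l ∈ L, ∃ u val, Forced H P D m0 Y ((c, (ρ, l)), r1, H.phi ρ c (P.π r1) a0) u val := by
    intro l hl
    rw [hL, mem_filter] at hl
    exact hall _ ((mem_vars_row H P D m0).2 (Or.inl ⟨c, hc, l, hl.1, rfl⟩)) hl.2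
  have hf' : ∀ l, ∃ u val, l ∈ L →
      Forced H P D m0 Y ((c, (ρ, l)), r1, H.phi ρ c (P.π r1) a0) u val := by
    intro l
    by_cases hl : l ∈ L
    · obtain ⟨u, val, h⟩ := hf l hl
      exact ⟨u, val, fun _ => h⟩
    · obtain ⟨l', hl'⟩ := card_pos.1 (show 0 < L.card by omega)
      obtain ⟨u, val, h⟩ := hf l' hl'
      exact ⟨u, val, fun h => absurd h hl⟩
  choose u val hu using hf'
  -- the other variables are covered by `Y2`
  have hcov2 : ∀ l ∈ L, ∀ r, r ≠ r1 → InV H P D m0 Y2 ((c, (ρ, l)), r, u l r) := by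
    intro l hl r hr
    obtain ⟨y, hy, hvy⟩ := (hu l hl).2.2 r hr
    refine ⟨y, mem_filter.2 ⟨hy, ?_⟩, hvy⟩
    rintro ⟨l', hl', hvy'⟩
    have hll : l ≠ l' := by
      rintro rfl
      exact (mem_filter.1 hl).2 ⟨y, hy, hvy'⟩
    obtain ⟨b, hb, rfl⟩ := two_cover H P D m0 hll (hLsub hl) hl' hvy hvy'
    have h3 := (sym_of_mem H P D m0 hc (show _ ∈ (Con.row ρ m r b).vars H P D m0 from hvy')).1
    exact hr h3.symm
  -- row constraints in all rows
  have hrow : ∀ r, r ≠ r1 → ∃ b, ∃ hb : (Con.row ρ m r b : Con Q R M' k).Valid H P,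
      (Sum.inr ⟨_, hb⟩ : Item M' H P) ∈ Y := by
    intro r hr
    obtain ⟨l, hl, b, hb, hbY, hs⟩ := exists_row H P D m0 hc r L hLsub (by omega)
      (fun l => u l r) (fun l hl => hcov2 l hl r hr)
    exact ⟨b, hb, (mem_filter.1 hbY).1⟩
  have hrow' : ∀ r, ∃ b, r ≠ r1 → ∃ hb : (Con.row ρ m r b : Con Q R M' k).Valid H P,
      (Sum.inr ⟨_, hb⟩ : Item M' H P) ∈ Y := by
    intro r
    by_cases hr : r = r1
    · exact ⟨a0, fun h => absurd hr h⟩
    · obtain ⟨b, hb⟩ := hrow r hr
      exact ⟨b, fun _ => hb⟩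
  choose b hb using hrow'
  -- a bit whose element is covered by row constraints of the line only
  have hgoodl : ∃ l ∈ L, ∀ r, r ≠ r1 → ∃ b', ∃ hb : (Con.row ρ m r b' : Con Q R M' k).Valid H P,
      (Sum.inr ⟨_, hb⟩ : Item M' H P) ∈ Y ∧ u l r = H.phi ρ c (P.π r) b' := by
    by_contra hcon
    push Not at hcon
    obtain ⟨l1, hl1, l2, hl2, hne⟩ := one_lt_card.1 (show 1 < L.card by omega)
    have hkey : ∀ l ∈ L, ∃ r, r ≠ r1 ∧ ∃ y ∈ Y, ((c, (ρ, l)), r, u l r) ∈ cov H P D m0 y ∧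
        ∀ r' b' h, y ≠ Sum.inr ⟨Con.row ρ m r' b', h⟩ := by
      intro l hl
      obtain ⟨r, hr, hr'⟩ := hcon l hl
      obtain ⟨y, hy, hvy⟩ := (hu l hl).2.2 r hr
      refine ⟨r, hr, y, hy, hvy, fun r' b' h hyy => ?_⟩
      subst hyy
      obtain ⟨rfl, h3⟩ := sym_of_mem H P D m0 hc
        (show _ ∈ (Con.row ρ m r' b').vars H P D m0 from hvy)
      exact hr' b' h hy h3
    obtain ⟨r, hr, y, hy, hvy, hyn⟩ := hkey l1 hl1
    obtain ⟨r', hr', z, hz, hvz, hzn⟩ := hkey l2 hl2
    have hyz : y = z := extra_le H P hY hb hy hz (fun r' _ h => hyn r' _ h)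
      (fun r' _ h => hzn r' _ h)
    subst hyz
    obtain ⟨b', hb', h3⟩ := two_cover H P D m0 hne (hLsub hl1) (hLsub hl2) hvy hvz
    exact hyn r b' hb' h3
  obtain ⟨l, hl, hl'⟩ := hgoodl
  have hex : ∀ r, ∃ b', (r = r1 → b' = a0) ∧ (r ≠ r1 →
      ∃ hb : (Con.row ρ m r b' : Con Q R M' k).Valid H P,
      (Sum.inr ⟨_, hb⟩ : Item M' H P) ∈ Y) ∧ u l r = H.phi ρ c (P.π r) b' ∧
      b' ∈ H.dom ρ (P.π r) := by
    intro r
    by_cases hr : r = r1
    · refine ⟨a0, fun _ => rfl, fun h => absurd hr h, ?_, ?_⟩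
      · rw [hr]
        exact (hu l hl).2.1
      · rw [hr]
        exact he
    · obtain ⟨b', hb', h1, h2⟩ := hl' r hr
      exact ⟨b', fun h => absurd h hr, fun _ => ⟨hb', h1⟩, h2, hb'⟩
  choose b' hb1 hb2 hb3 hb4 using hex
  refine ⟨b', hb1 r1 rfl, fun r hr => hb2 r hr, ?_, hb4, ?_⟩
  · intro r r' hrr
    have h1 := (hu l hl).1.const H P m0 r r' hrr
    rw [hb3 r, hb3 r', ← hrr] at h1
    refine H.phi_inj ρ c (P.π r) hc (hb4 r) ?_ h1
    rw [hrr]
    exact hb4 r'
  · rcases (hu l hl).1 with ⟨x, h1, h2, _⟩ | ⟨h1, _⟩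
    · refine ⟨x, h2, ?_⟩
      rw [← h1]
      funext r
      exact hb3 r
    · have h2 : c = H.cg := congrArg Prod.fst h1
      exact absurd (h2 ▸ hc) (H.cg_prem ρ)

/-- the address of a line -/
theorem exists_addr (hq : k + 2 ≤ q) (hY : Y.card ≤ k)
    (he : (Con.row ρ m r1 a0 : Con Q R M' k).Valid H P)
    (hnot : (Sum.inr ⟨_, he⟩ : Item M' H P) ∉ Y)
    (hall : ∀ v ∈ (Con.row ρ m r1 a0 : Con Q R M' k).vars H P D m0, ¬ InV H P D m0 Y v →
      ∃ u val, Forced H P D m0 Y v u val) :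
    ∃ x : Fin h → Q, x (P.π r1) = a0 ∧ Line H P Y ρ m r1 (x ∘ P.π) ∧
      (∀ j, x j ∈ H.dom ρ j) ∧ ∀ c ∈ H.prem ρ, H.Der c fun j => H.phi ρ c j (x j) := by
  obtain ⟨c, hc⟩ := H.prem_ne ρ
  obtain ⟨b, hb1, hb2, hb3, hb4, _⟩ := exists_line H P D m0 hq hY he hnot hall hc
  obtain ⟨i, hi⟩ := P.surj.hasRightInverse
  have hbx : (fun j => b (i j)) ∘ P.π = b := by
    funext r
    exact hb3 _ _ (hi _)
  refine ⟨fun j => b (i j), ?_, ?_, ?_, ?_⟩
  · rw [← hb1]
    exact congrFun hbx r1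
  · rw [hbx]
    exact hb2
  · intro j
    have := hb4 (i j)
    rwa [hi j] at this
  · intro c' hc'
    obtain ⟨b', hb1', hb2', hb3', hb4', x, hx, hx'⟩ :=
      exists_line H P D m0 hq hY he hnot hall hc'
    have hbb : b = b' := line_unique H P hY hb2 hb2' (hb1.trans hb1'.symm) hb3 hb3'
    subst hbb
    have : x = fun j => H.phi ρ c' j (b (i j)) := by
      funext j
      have := congrFun hx' (i j)
      simp only [Function.comp_apply, hi j] at this
      exact this
    rw [← this]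
    exact hx

/-- the symbol of the variable of kind `ξ` in the row constraint at `s` -/
noncomputable def wsym (ρ : R) (c : C) (j : Fin h) (s : Q) : Q :=
  open Classical in if c ∈ H.prem ρ then H.phi ρ c j s else H.psi ρ j s

open Classical in
/-- the kinds of a row constraint -/
noncomputable def kinds (ρ : R) (m : Bit R M') : Finset (Kind C R M') :=
  (H.prem ρ ×ˢ D.S m).image (fun c => (c.1, (ρ, c.2))) ∪ {(H.concl ρ, m)}

theorem mem_kinds {ρ : R} {m : Bit R M'} {ξ : Kind C R M'} :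
    ξ ∈ kinds H D ρ m ↔ (∃ c ∈ H.prem ρ, ∃ l ∈ D.S m, ξ = (c, (ρ, l))) ∨ ξ = (H.concl ρ, m) := by
  unfold kinds
  simp only [mem_union, mem_image, mem_product, mem_singleton, Prod.exists]
  constructor
  · rintro (⟨c, l, ⟨hc, hl⟩, rfl⟩ | rfl)
    · exact Or.inl ⟨c, hc, l, hl, rfl⟩
    · exact Or.inr rfl
  · rintro (⟨c, hc, l, hl, rfl⟩ | rfl)
    · exact Or.inl ⟨c, l, ⟨hc, hl⟩, rfl⟩
    · exact Or.inr rfl

theorem sum_vars_row (ρ : R) (m : Bit R M') (r : Fin k) (s : Q) (f : Var Q C R M' k → ZMod 2) :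
    ∑ v ∈ (Con.row ρ m r s : Con Q R M' k).vars H P D m0, f v =
      ∑ ξ ∈ kinds H D ρ m, f (ξ, r, wsym H ρ ξ.1 (P.π r) s) := by
  classical
  have e1 : (Con.row ρ m r s : Con Q R M' k).vars H P D m0 =
      (kinds H D ρ m).image fun ξ => (ξ, r, wsym H ρ ξ.1 (P.π r) s) := by
    ext v
    rw [mem_vars_row, mem_image]
    constructor
    · rintro (⟨c, hc, l, hl, rfl⟩ | rfl)
      · refine ⟨(c, (ρ, l)), (mem_kinds H D).2 (Or.inl ⟨c, hc, l, hl, rfl⟩), ?_⟩
        simp [wsym, hc]
      · refine ⟨(H.concl ρ, m), (mem_kinds H D).2 (Or.inr rfl), ?_⟩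
        simp [wsym, H.concl_notin ρ]
    · rintro ⟨ξ, hξ, rfl⟩
      rcases (mem_kinds H D).1 hξ with ⟨c, hc, l, hl, rfl⟩ | rfl
      · refine Or.inl ⟨c, hc, l, hl, ?_⟩
        simp [wsym, hc]
      · refine Or.inr ?_
        simp [wsym, H.concl_notin ρ]
  rw [e1, sum_image]
  intro ξ _ ξ' _ hξ
  exact congrArg Prod.fst hξ

include hg in
/-- if all new variables are forced then the constraint has parity zero -/
theorem forced_parity (hq : k + 2 ≤ q) (hY : Y.card ≤ k) {a : Var Q C R M' k → ZMod 2}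
    (hgood : Good H P D m0 Y a)
    (he : (Con.row ρ m r1 a0 : Con Q R M' k).Valid H P)
    (hnot : (Sum.inr ⟨_, he⟩ : Item M' H P) ∉ Y)
    (hall : ∀ v ∈ (Con.row ρ m r1 a0 : Con Q R M' k).vars H P D m0, ¬ InV H P D m0 Y v →
      ∃ u val, Forced H P D m0 Y v u val) :
    ∑ v ∈ (Con.row ρ m r1 a0 : Con Q R M' k).vars H P D m0, ext H P D m0 Y a v = 0 := by
  obtain ⟨x, hx1, hx2, hx3, hx4⟩ := exists_addr H P D m0 hq hY he hnot hall
  -- the known elements
  have hk : ∀ ξ ∈ kinds H D ρ m, KP H P m0 ξ (fun r => wsym H ρ ξ.1 (P.π r) (x (P.π r))) 0 := by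
    intro ξ hξ
    rcases (mem_kinds H D).1 hξ with ⟨c, hc, l, hl, rfl⟩ | rfl
    · refine Or.inl ⟨fun j => H.phi ρ c j (x j), ?_, hx4 c hc, rfl⟩
      funext r
      simp [wsym, hc]
    · refine Or.inl ⟨fun j => H.psi ρ j (x j), ?_, RowHorn.Der.step ρ x hx3 hx4, rfl⟩
      funext r
      simp [wsym, H.concl_notin ρ]
  -- membership of the variables
  have hmem : ∀ r, ∀ ξ ∈ kinds H D ρ m, (ξ, r, wsym H ρ ξ.1 (P.π r) (x (P.π r))) ∈
      (Con.row ρ m r (x (P.π r)) : Con Q R M' k).vars H P D m0 := by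
    intro r ξ hξ
    rcases (mem_kinds H D).1 hξ with ⟨c, hc, l, hl, rfl⟩ | rfl
    · rw [mem_vars_row]
      refine Or.inl ⟨c, hc, l, hl, ?_⟩
      simp [wsym, hc]
    · rw [mem_vars_row]
      refine Or.inr ?_
      simp [wsym, H.concl_notin ρ]
  have hin : ∀ r, r ≠ r1 → ∀ v ∈ (Con.row ρ m r (x (P.π r)) : Con Q R M' k).vars H P D m0,
      InV H P D m0 Y v := by
    intro r hr v hv
    obtain ⟨hb, hbY⟩ := hx2 r hr
    exact ⟨_, hbY, hv⟩
  -- the sum of every kind vanishes
  have hzero : ∀ ξ ∈ kinds H D ρ m,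
      ∑ r, ext H P D m0 Y a (ξ, r, wsym H ρ ξ.1 (P.π r) (x (P.π r))) = 0 := by
    intro ξ hξ
    by_cases hr1 : InV H P D m0 Y (ξ, r1, wsym H ρ ξ.1 (P.π r1) (x (P.π r1)))
    · have hi : ∀ r, InV H P D m0 Y (ξ, r, wsym H ρ ξ.1 (P.π r) (x (P.π r))) := by
        intro r
        by_cases hr : r = r1
        · rw [hr]; exact hr1
        · exact hin r hr _ (hmem r ξ hξ)
      rw [← hgood.2 ξ _ 0 (hk ξ hξ) hi]
      exact sum_congr rfl fun r _ => ext_of_inV H P D m0 (hi r)
    · have hi : ∀ r, r ≠ r1 → InV H P D m0 Y (ξ, r, wsym H ρ ξ.1 (P.π r) (x (P.π r))) :=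
        fun r hr => hin r hr _ (hmem r ξ hξ)
      have hf : Forced H P D m0 Y (ξ, r1, wsym H ρ ξ.1 (P.π r1) (x (P.π r1)))
          (fun r => wsym H ρ ξ.1 (P.π r) (x (P.π r))) 0 := ⟨hk ξ hξ, rfl, hi⟩
      rw [← ext_of_forced H P D m0 hg hY (a := a) hr1 hf, ← add_sum_erase univ _ (mem_univ r1)]
      congr 1
      exact sum_congr rfl fun r hr => ext_of_inV H P D m0 (hi r (mem_erase.1 hr).1)
  have htot : ∑ r, ∑ v ∈ (Con.row ρ m r (x (P.π r)) : Con Q R M' k).vars H P D m0,
      ext H P D m0 Y a v = 0 := by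
    have : ∀ r, ∑ v ∈ (Con.row ρ m r (x (P.π r)) : Con Q R M' k).vars H P D m0,
        ext H P D m0 Y a v = ∑ ξ ∈ kinds H D ρ m,
          ext H P D m0 Y a (ξ, r, wsym H ρ ξ.1 (P.π r) (x (P.π r))) :=
      fun r => sum_vars_row H P D m0 ρ m r _ _
    simp only [this]
    rw [sum_comm]
    exact sum_eq_zero hzero
  rw [← add_sum_erase univ _ (mem_univ r1)] at htot
  have hrest : ∑ r ∈ univ.erase r1, ∑ v ∈ (Con.row ρ m r (x (P.π r)) : Con Q R M' k).vars H P D m0,
      ext H P D m0 Y a v = 0 := by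
    refine sum_eq_zero fun r hr => ?_
    obtain ⟨hb, hbY⟩ := hx2 r (mem_erase.1 hr).1
    have h1 := hgood.1 _ hbY
    rw [show (Con.par (Con.row ρ m r ((x ∘ P.π) r)) : ZMod 2) = 0 from rfl] at h1
    rw [← h1]
    exact sum_congr rfl fun v hv => ext_of_inV H P D m0 (hin r (mem_erase.1 hr).1 v hv)
  rw [hrest, add_zero, hx1] at htot
  exact htot

end forced

/-! ### the theorem -/

include hg in
/-- **Duplicator's move.** -/
theorem forth [DecidableEq (Item M' H P)] (hq : k + 2 ≤ q) {Y : Finset (Item M' H P)}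
    (hY : Y.card ≤ k) {a : Var Q C R M' k → ZMod 2} (hgood : Good H P D m0 Y a)
    (x : Item M' H P) :
    ∃ a', (∀ v, InV H P D m0 Y v → a' v = a v) ∧ Good H P D m0 (insert x Y) a' := by
  classical
  by_cases hxY : x ∈ Y
  · refine ⟨a, fun _ _ => rfl, ?_⟩
    rw [insert_eq_of_mem hxY]
    exact hgood
  rcases x with v | ⟨e, he⟩
  · refine ⟨ext H P D m0 Y a, fun v hv => ext_of_inV H P D m0 hv, ?_⟩
    refine glue_row H P D m0 hgood _ v.2.1 ?_ (fun v hv => ext_of_inV H P D m0 hv) ?_ ?_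
    · intro w hw
      rw [cov, mem_singleton] at hw
      rw [hw]
    · intro e he
      exact absurd he (by simp)
    · intro w _ hw u val hf
      exact ext_of_forced H P D m0 hg hY hw hf
  · cases e with
    | row ρ m r1 a0 =>
      by_cases hall : ∀ v ∈ (Con.row ρ m r1 a0 : Con Q R M' k).vars H P D m0,
          ¬ InV H P D m0 Y v → ∃ u val, Forced H P D m0 Y v u val
      · refine ⟨ext H P D m0 Y a, fun v hv => ext_of_inV H P D m0 hv, ?_⟩
        refine glue_row H P D m0 hgood _ r1 ?_ (fun v hv => ext_of_inV H P D m0 hv) ?_ ?_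
        · intro w hw
          exact row_of_mem H P D m0 (show _ ∈ (Con.row ρ m r1 a0).vars H P D m0 from hw)
        · intro e' he'
          rw [Sum.inr.injEq] at he'
          subst he'
          exact forced_parity H P D m0 hg hq hY hgood he hxY hall
        · intro w _ hw u val hf
          exact ext_of_forced H P D m0 hg hY hw hf
      · push Not at hall
        obtain ⟨v, hv, hvY, hvf⟩ := hall
        set S : ZMod 2 := ∑ w ∈ (Con.row ρ m r1 a0 : Con Q R M' k).vars H P D m0,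
          ext H P D m0 Y a w with hS
        set a' : Var Q C R M' k → ZMod 2 :=
          Function.update (ext H P D m0 Y a) v (ext H P D m0 Y a v + S) with ha'
        have h1 : ∀ w, InV H P D m0 Y w → a' w = a w := by
          intro w hw
          rw [ha', Function.update_of_ne, ext_of_inV H P D m0 hw]
          rintro rfl
          exact hvY hw
        refine ⟨a', h1, ?_⟩
        refine glue_row H P D m0 hgood _ r1 ?_ h1 ?_ ?_
        · intro w hw
          exact row_of_mem H P D m0 (show _ ∈ (Con.row ρ m r1 a0).vars H P D m0 from hw)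
        · intro e' he'
          rw [Sum.inr.injEq] at he'
          subst he'
          change ∑ w ∈ (Con.row ρ m r1 a0 : Con Q R M' k).vars H P D m0, a' w = 0
          rw [← add_sum_erase _ _ hv, ha', Function.update_self]
          have h2 : ∑ w ∈ ((Con.row ρ m r1 a0 : Con Q R M' k).vars H P D m0).erase v,
              Function.update (ext H P D m0 Y a) v (ext H P D m0 Y a v + S) w =
              ∑ w ∈ ((Con.row ρ m r1 a0 : Con Q R M' k).vars H P D m0).erase v,
                ext H P D m0 Y a w := by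
            refine sum_congr rfl fun w hw => ?_
            rw [Function.update_of_ne (mem_erase.1 hw).1]
          rw [h2, add_right_comm, add_sum_erase _ _ hv, ← hS, CharTwo.add_self_eq_zero]
        · intro w _ hw u val hf
          have hwv : w ≠ v := by
            rintro rfl
            exact hvf u val hf
          rw [ha', Function.update_of_ne hwv]
          exact ext_of_forced H P D m0 hg hY hw hf
    | cross m =>
      refine glue_line H P D m0 hgood _ (H.c0, m) (H.x0 ∘ P.π)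
        (fun v => mem_vars_cross H P D m0) ?_ ?_
      · exact Or.inl ⟨H.x0, rfl, RowHorn.Der.base, rfl⟩
      · intro u val hk
        exact KP.c0 H P m0 hk
    | goal =>
      refine glue_line H P D m0 hgood _ (H.cg, m0) (H.xg ∘ P.π)
        (fun v => mem_vars_goal H P D m0) ?_ ?_
      · exact Or.inr ⟨rfl, rfl, rfl⟩
      · intro u val hk
        exact ⟨(KP.cg H P m0 hg hk).2.1, (KP.cg H P m0 hg hk).2.2⟩

theorem Good.mono {Y Y' : Finset (Item M' H P)} {a : Var Q C R M' k → ZMod 2}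
    (hgood : Good H P D m0 Y a) (hsub : Y' ⊆ Y) : Good H P D m0 Y' a :=
  ⟨fun e he => hgood.1 e (hsub he), fun ξ u val hk hin =>
    hgood.2 ξ u val hk fun r => (hin r).imp fun _ h => ⟨hsub h.1, h.2⟩⟩

theorem good_empty (hk : 0 < k) (a : Var Q C R M' k → ZMod 2) : Good H P D m0 ∅ a := by
  refine ⟨fun e he => absurd he (notMem_empty _), fun ξ u val _ hin => ?_⟩
  obtain ⟨y, hy, _⟩ := hin ⟨0, hk⟩
  exact absurd hy (notMem_empty _)

end forth

end

end Vale.Agent.P310
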