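import Vale.Agent.P310.H44.TheoremA
import Vale.Agent.P310.H593.Num2

/-!
# P310: Theorem A for the numbered graphs
-/

namespace Vale.Agent.P310

namespace HData

variable {D : HData} {k : ℕ}

/-- **Theorem A for the numbered graphs.** For `k ≥ 2 h` and every number `N` of vertices (at least
the number `nTot` of vertices of the construction), the graphs `numGraph false N` and
`numGraph true N` are `k`-WL equivalent iff the goal is not derivable. -/
theorem wlEquiv_numGraph_iff (hD : D.Ok) (hk0 : 0 < k) (hk2 : 2 * D.h ≤ k) {N : ℕ}
    (hN : D.nTot k (FF k) ≤ N) :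
    WLEquiv k (numGraph hD hk0 false N) (numGraph hD hk0 true N) ↔ ¬ D.NDer 1 fun _ => 0 := by
  classical
  have hh := hD.hh
  have hk : 2 ≤ k := by omega
  obtain ⟨m, rfl⟩ := Nat.exists_eq_add_of_le hN
  rw [wlEquiv_numGraph hD hk0 hk m]
  refine theoremA (D := D) hD hk0 hk2 (fun e => ?_) (fun e => ?_) (cntN_ok D k)
  · simp [parN]
  · cases e with
    | row ρ m r a => simp [parN, Con.par]
    | cross m => simp [parN, Con.par]
    | goal => simp [parN, Con.par]

/-- The input word of the numbered graphs. -/
theorem inputWord_numGraph (hD : D.Ok) (hk0 : 0 < k) (N : ℕ) :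
    inputWord (numGraph hD hk0 false N) (numGraph hD hk0 true N) =
      D.bitsN k (FF k) false N ++ D.bitsN k (FF k) true N := by
  rw [inputWord, adjBits_numGraph, adjBits_numGraph]

end HData

end Vale.Agent.P310
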