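import Mathlib

/-!
# P310: row Horn systems and the parity constraint systems built from them

Construction of helper853 (Theorem A).  A fact is a pair `(c, x)`, `c` a type, `x : Fin h → Q`.
The digit `x j` is stored in all rows `r` with `π r = j`, and every digit is stored in at least
two rows.
-/

namespace Vale.Agent.P310

/-- A row Horn system: digit-local rules on facts `(c, x)`. -/
structure RowHorn (Q C R : Type) (h : ℕ) where
  /-- the premise types of a rule -/
  prem : R → Finset C
  /-- the type of the conclusion -/
  concl : R → C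
  /-- the domain of a rule, digit by digit -/
  dom : R → Fin h → Set Q
  /-- address of the premise of type `c`, digit by digit -/
  phi : R → C → Fin h → Q → Q
  /-- address of the conclusion, digit by digit -/
  psi : R → Fin h → Q → Q
  /-- the type of the start fact -/
  c0 : C
  /-- the address of the start fact -/
  x0 : Fin h → Q
  /-- the type of the goal -/
  cg : C
  /-- the address of the goal -/
  xg : Fin h → Q
  prem_ne : ∀ ρ, (prem ρ).Nonempty
  concl_notin : ∀ ρ, concl ρ ∉ prem ρ
  phi_inj : ∀ ρ c j, c ∈ prem ρ → Set.InjOn (phi ρ c j) (dom ρ j)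
  c0_concl : ∀ ρ, concl ρ ≠ c0
  cg_prem : ∀ ρ, cg ∉ prem ρ
  cg_concl : ∀ ρ j a, concl ρ = cg → psi ρ j a = xg j
  c0_ne_cg : c0 ≠ cg

variable {Q C R : Type} {h : ℕ}

/-- the derivable facts -/
inductive RowHorn.Der (H : RowHorn Q C R h) : C → (Fin h → Q) → Prop
  | base : H.Der H.c0 H.x0
  | step (ρ : R) (x : Fin h → Q) (hx : ∀ j, x j ∈ H.dom ρ j)
      (hp : ∀ c ∈ H.prem ρ, H.Der c fun j => H.phi ρ c j (x j)) :
      H.Der (H.concl ρ) fun j => H.psi ρ j (x j)

/-- The design: `S m`, `m ∈ R × M'`, are sets of size `q` in `M'`, two of them meeting in at most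
one element. -/
structure Design (R M' : Type) (q : ℕ) where
  /-- the line of a bit -/
  S : R × M' → Finset M'
  card_S : ∀ m, (S m).card = q
  inter : ∀ m m', m ≠ m' → ∀ l₁ l₂, l₁ ∈ S m → l₁ ∈ S m' → l₂ ∈ S m → l₂ ∈ S m' → l₁ = l₂

/-- Storage of the digits in rows: every digit is stored in at least two rows. -/
structure Rows (k h : ℕ) where
  /-- the digit stored in a row -/
  π : Fin k → Fin h
  surj : Function.Surjective π
  two : ∀ r, ∃ r', r' ≠ r ∧ π r' = π r

section
variable (Q C R) (M' : Type) (k : ℕ)

/-- a bit is `(ρ, l)` -/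
abbrev Bit := R × M'

/-- kinds of variables: type and bit -/
abbrev Kind := C × Bit R M'

/-- variables: kind, row, symbol -/
abbrev Var := Kind C R M' × Fin k × Q

/-- constraints -/
inductive Con
  /-- the row constraint of the rule `ρ` with conclusion bit `m`, in row `r`, at the symbol `a` -/
  | row (ρ : R) (m : Bit R M') (r : Fin k) (a : Q)
  /-- the cross constraint of the start fact, bit `m` -/
  | cross (m : Bit R M')
  /-- the goal constraint -/
  | goal
end

variable {M' : Type} {k : ℕ}

/-- the row constraints exist on the domains only -/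
def Con.Valid (H : RowHorn Q C R h) (P : Rows k h) : Con Q R M' k → Prop
  | .row ρ _ r a => a ∈ H.dom ρ (P.π r)
  | _ => True

open Classical in
/-- the variables of a constraint; `m0` is the bit used by the goal constraint -/
noncomputable def Con.vars {q : ℕ} (H : RowHorn Q C R h) (P : Rows k h) (D : Design R M' q)
    (m0 : Bit R M') : Con Q R M' k → Finset (Var Q C R M' k)
  | .row ρ m r a =>
    ((H.prem ρ ×ˢ D.S m).image fun c => ((c.1, (ρ, c.2)), r, H.phi ρ c.1 (P.π r) a)) ∪
      {((H.concl ρ, m), r, H.psi ρ (P.π r) a)}
  | .cross m => Finset.univ.image fun r => ((H.c0, m), r, H.x0 (P.π r))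
  | .goal => Finset.univ.image fun r => ((H.cg, m0), r, H.xg (P.π r))

/-- the right hand side in the graph `H`; in `G` all right hand sides are zero -/
def Con.par : Con Q R M' k → ZMod 2
  | .goal => 1
  | _ => 0

end Vale.Agent.P310
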