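import Vale.Agent.P310.H853.Pad
import Vale.Agent.P310.H593.WL

/-!
# P310: graphs on `Fin N` with isolated vertices at the end
-/

namespace Vale.Agent.P310

open SimpleGraph

variable {V W : Type} [Fintype V] [Fintype W] {k : ℕ}

/-- The graph `G` on `Fin N`, all edges of which are among the first `n0` vertices, is the sum of a
graph on `n0` vertices and an edgeless graph. -/
def padIso (G0 : SimpleGraph V) {n0 N : ℕ} (hN : n0 ≤ N) (e : V ≃ Fin n0) (G : SimpleGraph (Fin N))
    (hG : ∀ x y, G0.Adj x y ↔ G.Adj (Fin.castLE hN (e x)) (Fin.castLE hN (e y)))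
    (hG' : ∀ x y, G.Adj x y → (x : ℕ) < n0) :
    (G0 ⊕g (⊥ : SimpleGraph (Fin (N - n0)))) ≃g G where
  toEquiv := ((e.sumCongr (Equiv.refl _)).trans finSumFinEquiv).trans
    (finCongr (by omega))
  map_rel_iff' := by
    intro x y
    rcases x with x | x <;> rcases y with y | y
    · exact (hG x y).symm
    · refine iff_of_false (fun h => ?_) (by simp)
      have := hG' _ _ h.symm
      simp at this
    · refine iff_of_false (fun h => ?_) (by simp)
      have := hG' _ _ h
      simp at this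
    · refine iff_of_false (fun h => ?_) (by simp)
      have := hG' _ _ h
      simp at this

/-- Numbered graphs with isolated vertices at the end. -/
theorem wlEquiv_fin_pad (hk : 2 ≤ k) {G0 : SimpleGraph V} {H0 : SimpleGraph W} {n0 N : ℕ}
    (hN : n0 ≤ N) (e : V ≃ Fin n0) (f : W ≃ Fin n0) {G H : SimpleGraph (Fin N)}
    (hG : ∀ x y, G0.Adj x y ↔ G.Adj (Fin.castLE hN (e x)) (Fin.castLE hN (e y)))
    (hG' : ∀ x y, G.Adj x y → (x : ℕ) < n0)
    (hH : ∀ x y, H0.Adj x y ↔ H.Adj (Fin.castLE hN (f x)) (Fin.castLE hN (f y)))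
    (hH' : ∀ x y, H.Adj x y → (x : ℕ) < n0) : WLEquiv k G H ↔ WLEquiv k G0 H0 := by
  rw [← wlEquiv_sum_bot (U := Fin (N - n0)) (G := G0) (H := H0) hk]
  exact (WLEquiv.congr_iso (padIso G0 hN e G hG hG') (padIso H0 hN f H hH hH')).symm

end Vale.Agent.P310
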