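import Vale.Agent.P310.H44.Dup
import Vale.Agent.P310.Graph

/-!
# P310, W2: the Duplicator half of Theorem A on a slot system

The items are all variables and all constraints; constraints that are not valid have no variables.
-/

namespace Vale.Agent.P310

open Finset

variable {Q C R M' Sl : Type} {h k q : ℕ}
variable (H : RowHorn Q C R h) (P : Rows k h) (D : Design R M' q) (m0 : Bit R M')

/-- forget validity -/
def Item.val : Item M' H P → Var Q C R M' k ⊕ Con Q R M' k := Sum.map id Subtype.val

theorem Item.val_injective : Function.Injective (Item.val (M' := M') H P) :=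
  Function.Injective.sumMap Function.injective_id Subtype.val_injective

/-- the valid items of a set -/
noncomputable def validItems (Y : Finset (Var Q C R M' k ⊕ Con Q R M' k)) :
    Finset (Item M' H P) :=
  Y.preimage (Item.val H P) (Item.val_injective H P).injOn

theorem mem_validItems {Y : Finset (Var Q C R M' k ⊕ Con Q R M' k)} {y : Item M' H P} :
    y ∈ validItems H P Y ↔ Item.val H P y ∈ Y := by
  simp [validItems]

/-- the invariant of Duplicator, for sets of items of a slot system -/
def GoodS (Y : Finset (Var Q C R M' k ⊕ Con Q R M' k)) (a : Var Q C R M' k → ZMod 2) : Prop :=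
  Good H P D m0 (validItems H P Y) a

theorem GoodS.mono {Y Y' : Finset (Var Q C R M' k ⊕ Con Q R M' k)}
    {a : Var Q C R M' k → ZMod 2} (hg : GoodS H P D m0 Y a) (hsub : Y' ⊆ Y) :
    GoodS H P D m0 Y' a :=
  Good.mono H P D m0 hg fun y hy => (mem_validItems H P).2 (hsub ((mem_validItems H P).1 hy))

theorem goodS_empty (hk : 0 < k) (a : Var Q C R M' k → ZMod 2) : GoodS H P D m0 ∅ a := by
  have : validItems H P (∅ : Finset (Var Q C R M' k ⊕ Con Q R M' k)) = ∅ := by
    ext y
    simp [mem_validItems]
  unfold GoodS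
  rw [this]
  exact good_empty H P D m0 hk a

variable (S : SlotSys (Var Q C R M' k) (Con Q R M' k) Sl)
  (hS : ∀ e : Con Q R M' k, e.Valid H P → S.vars e = e.vars H P D m0)
  (hS' : ∀ e : Con Q R M' k, ¬ e.Valid H P → S.vars e = ∅)

include hS hS' in
theorem GoodS.par {Y : Finset (Var Q C R M' k ⊕ Con Q R M' k)} {a : Var Q C R M' k → ZMod 2}
    (hg : GoodS H P D m0 Y a) (e : Con Q R M' k) (he : Sum.inr e ∈ Y) :
    ∑ v ∈ S.vars e, a v = e.par := by
  by_cases hv : e.Valid H P
  · rw [hS e hv]
    exact hg.1 ⟨e, hv⟩ ((mem_validItems H P).2 he)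
  · rw [hS' e hv, sum_empty]
    cases e with
    | row ρ m r b => rfl
    | cross m => exact absurd trivial hv
    | goal => exact absurd trivial hv

include hS hS' in
theorem inV_validItems {Y : Finset (Var Q C R M' k ⊕ Con Q R M' k)} {v : Var Q C R M' k} :
    InV H P D m0 (validItems H P Y) v ↔ ∃ y ∈ Y, v ∈ S.ivars y := by
  constructor
  · rintro ⟨y, hy, hv⟩
    refine ⟨Item.val H P y, (mem_validItems H P).1 hy, ?_⟩
    rcases y with y | ⟨e, he⟩
    · simp only [cov, mem_singleton] at hv
      simp [Item.val, SlotSys.ivars, hv]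
    · simp only [Item.val, SlotSys.ivars, Sum.map_inr]
      rw [hS e he]
      exact hv
  · rintro ⟨y, hy, hv⟩
    rcases y with y | e
    · refine ⟨Sum.inl y, (mem_validItems H P).2 hy, ?_⟩
      simp only [SlotSys.ivars, mem_singleton] at hv
      simp [cov, hv]
    · by_cases he : e.Valid H P
      · refine ⟨Sum.inr ⟨e, he⟩, (mem_validItems H P).2 hy, ?_⟩
        simp only [SlotSys.ivars] at hv
        rw [hS e he] at hv
        exact hv
      · simp only [SlotSys.ivars] at hv
        rw [hS' e he] at hv
        exact absurd hv (notMem_empty _)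

include hS hS' in
/-- **Duplicator's move on a slot system.** -/
theorem forthS (hg : ¬ H.Der H.cg H.xg) (hq : k + 2 ≤ q)
    [DecidableEq (Var Q C R M' k ⊕ Con Q R M' k)]
    {Y : Finset (Var Q C R M' k ⊕ Con Q R M' k)} (hY : Y.card ≤ k)
    {a : Var Q C R M' k → ZMod 2} (hgood : GoodS H P D m0 Y a)
    (x : Var Q C R M' k ⊕ Con Q R M' k) :
    ∃ a', (∀ v, (∃ y ∈ Y, v ∈ S.ivars y) → a' v = a v) ∧ GoodS H P D m0 (insert x Y) a' := by
  classical
  have hcard : (validItems H P Y).card ≤ k := by
    refine le_trans ?_ hY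
    refine card_le_card_of_injOn (Item.val H P) (fun y hy => (mem_validItems H P).1 hy)
      (Item.val_injective H P).injOn
  have key : ∀ x' : Item M' H P, Item.val H P x' = x →
      ∃ a', (∀ v, (∃ y ∈ Y, v ∈ S.ivars y) → a' v = a v) ∧ GoodS H P D m0 (insert x Y) a' := by
    intro x' hx'
    obtain ⟨a', h1, h2⟩ := forth H P D m0 hg hq hcard hgood x'
    refine ⟨a', fun v hv => h1 v ((inV_validItems H P D m0 S hS hS').2 hv), ?_⟩
    refine Good.mono H P D m0 h2 fun y hy => ?_
    rw [mem_validItems, mem_insert] at hy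
    rw [mem_insert, mem_validItems]
    rcases hy with hy | hy
    · exact Or.inl (Item.val_injective H P (hy.trans hx'.symm))
    · exact Or.inr hy
  rcases x with v | e
  · exact key (Sum.inl v) rfl
  · by_cases he : e.Valid H P
    · exact key (Sum.inr ⟨e, he⟩) rfl
    · refine ⟨a, fun _ _ => rfl, ?_⟩
      refine Good.mono H P D m0 hgood fun y hy => ?_
      rw [mem_validItems, mem_insert] at hy
      rw [mem_validItems]
      rcases hy with hy | hy
      · exfalso
        rcases y with y | ⟨e', he'⟩
        · simp [Item.val] at hy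
        · simp only [Item.val, Sum.map_inr, Sum.inr.injEq] at hy
          exact he (hy ▸ he')
      · exact hy

end Vale.Agent.P310
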