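import Vale.Agent.P310.H44.Final
import Vale.Agent.P310.H853.Main

/-!
# P310: `GraphSpec`
-/

namespace Vale.Agent.P310

theorem graphSpec : GraphSpec := fun D hD k hk hk2 N hN =>
  ⟨HData.numGraph hD hk false N, HData.numGraph hD hk true N, fun _ _ => Iff.rfl,
    fun _ _ => Iff.rfl, HData.wlEquiv_numGraph_iff hD hk hk2 hN⟩

end Vale.Agent.P310
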