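import Vale.Agent.P310.H44.Slot
import Vale.Agent.P310.H302.Dup
import Vale.Agent.P310.H630.Final

/-!
# P310: Theorem A for Horn data

The graphs `G` (all right hand sides zero) and `H` (right hand side `1` at the goal constraint) are
`k`-WL equivalent iff the goal is not derivable.
-/

namespace Vale.Agent.P310

namespace HData

variable {D : HData} {k : ℕ}

/-- **Theorem A, Duplicator half**, for Horn data. -/
theorem duplicator (hD : D.Ok) (hk : 0 < k) (hk2 : 2 * D.h ≤ k) {cnt : D.HVar k ⊕ D.HCon k → ℕ}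
    {L : ℕ} [Fintype (CfiV (D.HVar k) (D.HCon k) (HSl k) L)] {p p' : D.HCon k → ZMod 2}
    (hp : ∀ e, p e = 0) (hp' : ∀ e, p' e = e.par) (hder : ¬ D.NDer 1 fun _ => 0) :
    WLEquiv k ((hsys hD hk).graph p cnt L) ((hsys hD hk).graph p' cnt L) := by
  classical
  have hg : ¬ (D.toHorn hD).Der (D.toHorn hD).cg (D.toHorn hD).xg := fun h =>
    hder ((D.der_iff hD _ _).1 h)
  have hS := fun e he => vars_eq (k := k) hD hk hk2 e he
  have hS' := fun e he => vars_invalid (k := k) hD hk hk2 e he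
  refine SlotSys.wlEquiv_of_good (hsys hD hk) k p p' cnt L
    (GoodS (D.toHorn hD) (modRows hD.hh hk2) (lineDesign D.nR (k + 3)) (m0 hD k)) ?_ ?_ ?_ ?_
  · intro Y Y' a h hY
    exact GoodS.mono _ _ _ _ h hY
  · intro Y a e h he
    rw [hp, hp', zero_add]
    exact GoodS.par _ _ _ _ _ hS hS' h e he
  · exact ⟨fun _ => 0, goodS_empty _ _ _ _ hk _⟩
  · intro Y a hY h x
    obtain ⟨a', h1, h2⟩ := forthS _ _ _ _ _ hS hS' hg (by omega : k + 2 ≤ k + 3) hY h x
    exact ⟨a', fun y hy v hv => h1 v ⟨y, hy, hv⟩, h2⟩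

/-- **Theorem A** for Horn data: the graphs are `k`-WL equivalent iff the goal is not derivable. -/
theorem theoremA (hD : D.Ok) (hk : 0 < k) (hk2 : 2 * D.h ≤ k) [Fintype (D.HVar k)]
    [DecidableEq (D.HVar k)] [Fintype (D.HCon k)] [DecidableEq (D.HCon k)]
    {cnt : D.HVar k ⊕ D.HCon k → ℕ} {L : ℕ} {p p' : D.HCon k → ZMod 2}
    (hp : ∀ e, p e = 0) (hp' : ∀ e, p' e = e.par)
    (hc : CntOk (D.HVar k) (D.HCon k) (HSl k) cnt L) :
    WLEquiv k ((hsys hD hk).graph p cnt L) ((hsys hD hk).graph p' cnt L) ↔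
      ¬ D.NDer 1 fun _ => 0 :=
  ⟨fun h hder => spoiler hD hk hk2 hp hp' hc hder h, fun h => duplicator hD hk hk2 hp hp' h⟩

end HData

end Vale.Agent.P310
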